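import Mathlib
import Crest.Prelude.Def_MassAction
import Crest.Agent.Lib.SmoothFlow

/-!
# Generic ODE layer for mass-action systems (S0122)

* `field_contDiff`: the mass-action field is `C^∞`.
* `field_mem`: the field takes values in the stoichiometric subspace.
* `forward_mem_class`: forward solutions stay in `c + S`.
* `forward_unique`: forward solutions of a `C¹` field are unique.
* `exists_forward_of_invariant`: a compact set which is invariant for finite-time solutions
  contains a global forward solution through each of its points.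
-/

set_option autoImplicit false

namespace Crest.Agent.MassActionODE

open Crest.AnalysisR.MassAction Set Metric Filter Topology
open scoped NNReal ContDiff

variable {d : ℕ}

theorem field_contDiff (R : Network d) (k : (Fin d → ℕ) × (Fin d → ℕ) → ℝ) :
    ContDiff ℝ ∞ (field R k) := by
  have h : ∀ r : (Fin d → ℕ) × (Fin d → ℕ),
      ContDiff ℝ ∞ (fun x : Fin d → ℝ => (k r * ∏ i, x i ^ (r.1 i)) • reactionVector r) := by
    intro r
    have hp : ContDiff ℝ ∞ (fun x : Fin d → ℝ => ∏ i, x i ^ (r.1 i)) := by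
      refine contDiff_prod fun i _ => ?_
      have h1 : ContDiff ℝ ∞ (fun x : Fin d → ℝ => x i) := contDiff_apply ℝ ℝ i
      exact h1.pow _
    have hq : ContDiff ℝ ∞ (fun x : Fin d → ℝ => k r * ∏ i, x i ^ (r.1 i)) :=
      contDiff_const.mul hp
    exact hq.smul contDiff_const
  have : field R k = fun x => ∑ r ∈ R, (k r * ∏ i, x i ^ (r.1 i)) • reactionVector r := rfl
  rw [this]
  exact ContDiff.sum fun r _ => h r

theorem field_mem (R : Network d) (k : (Fin d → ℕ) × (Fin d → ℕ) → ℝ) (x : Fin d → ℝ) :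
    field R k x ∈ stoichSubspace R := by
  unfold field
  refine Submodule.sum_mem _ fun r hr => Submodule.smul_mem _ _ ?_
  exact Submodule.subset_span ⟨r, hr, rfl⟩

section Generic

variable {E : Type*} [NormedAddCommGroup E] [NormedSpace ℝ E]

/-- A function with zero forward derivative on `[0,∞)` (within `Ici 0`) is constant there. -/
theorem const_of_forward_deriv_zero {f : ℝ → E}
    (hf : ∀ t, 0 ≤ t → HasDerivWithinAt f 0 (Ici 0) t) {t : ℝ} (ht : 0 ≤ t) : f t = f 0 := by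
  have hc : ContinuousOn f (Icc 0 t) := fun u hu =>
    ((hf u hu.1).continuousWithinAt).mono Icc_subset_Ici_self
  have hd : ∀ u ∈ Ico 0 t, HasDerivWithinAt f 0 (Ici u) u := fun u hu =>
    (hf u hu.1).mono (Ici_subset_Ici.mpr hu.1)
  exact constant_of_has_deriv_right_zero hc hd t ⟨ht, le_rfl⟩

/-- Forward solutions of a `C¹` field are unique. -/
theorem forward_unique_of_contDiff [FiniteDimensional ℝ E] {v : E → E} (hv : ContDiff ℝ 1 v)
    {x y : ℝ → E}
    (hx : ∀ t, 0 ≤ t → HasDerivWithinAt x (v (x t)) (Ici 0) t)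
    (hy : ∀ t, 0 ≤ t → HasDerivWithinAt y (v (y t)) (Ici 0) t)
    (h0 : x 0 = y 0) {t : ℝ} (ht : 0 ≤ t) : x t = y t := by
  have hcx : ContinuousOn x (Icc 0 t) := fun u hu =>
    ((hx u hu.1).continuousWithinAt).mono Icc_subset_Ici_self
  have hcy : ContinuousOn y (Icc 0 t) := fun u hu =>
    ((hy u hu.1).continuousWithinAt).mono Icc_subset_Ici_self
  have hKx : IsCompact (x '' Icc 0 t) := isCompact_Icc.image_of_continuousOn hcx
  have hKy : IsCompact (y '' Icc 0 t) := isCompact_Icc.image_of_continuousOn hcy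
  obtain ⟨r, hr⟩ := (hKx.union hKy).isBounded.subset_closedBall (0 : E)
  have hconv : Convex ℝ (closedBall (0 : E) r) := convex_closedBall _ _
  have hcomp : IsCompact (closedBall (0 : E) r) := isCompact_closedBall _ _
  -- a Lipschitz bound for `v` on the ball
  have hd : ContinuousOn (fun z => ‖fderiv ℝ v z‖₊) (closedBall (0 : E) r) :=
    (hv.continuous_fderiv one_ne_zero).nnnorm.continuousOn
  obtain ⟨C, hC⟩ : ∃ C : ℝ≥0, ∀ z ∈ closedBall (0 : E) r, ‖fderiv ℝ v z‖₊ ≤ C := by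
    obtain ⟨C, hC⟩ := (hcomp.image_of_continuousOn hd).bddAbove
    exact ⟨C, fun z hz => hC ⟨z, hz, rfl⟩⟩
  have hL : LipschitzOnWith C v (closedBall (0 : E) r) :=
    hconv.lipschitzOnWith_of_nnnorm_fderiv_le
      (fun z _ => (hv.differentiable one_ne_zero) z) hC
  have := ODE_solution_unique_of_mem_Icc_right (v := fun _ => v) (s := fun _ => closedBall (0 : E) r)
    (K := C) (f := x) (g := y) (a := 0) (b := t)
    (fun _ _ => hL) hcx
    (fun u hu => (hx u hu.1).mono (Ici_subset_Ici.mpr hu.1))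
    (fun u hu => hr (Or.inl ⟨u, ⟨hu.1, hu.2.le⟩, rfl⟩))
    hcy
    (fun u hu => (hy u hu.1).mono (Ici_subset_Ici.mpr hu.1))
    (fun u hu => hr (Or.inr ⟨u, ⟨hu.1, hu.2.le⟩, rfl⟩))
    h0
  exact this ⟨ht, le_rfl⟩

/-- Forward solutions stay in a translate of a closed subspace containing the field. -/
theorem forward_sub_mem {v : E → E} (S : Submodule ℝ E) [FiniteDimensional ℝ E]
    (hvS : ∀ z, v z ∈ S) {x : ℝ → E}
    (hx : ∀ t, 0 ≤ t → HasDerivWithinAt x (v (x t)) (Ici 0) t)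
    {c : E} (h0 : x 0 - c ∈ S) {t : ℝ} (ht : 0 ≤ t) : x t - c ∈ S := by
  obtain ⟨T, hT⟩ := Submodule.exists_isCompl S
  let q : E →L[ℝ] T := LinearMap.toContinuousLinearMap (Submodule.projectionOnto T S hT.symm)
  have hq : ∀ z, q z = 0 ↔ z ∈ S := by
    intro z
    have h := Submodule.ker_projectionOnto (p := T) (q := S) hT.symm
    have : z ∈ LinearMap.ker (Submodule.projectionOnto T S hT.symm) ↔ z ∈ S := by rw [h]
    rw [← this, LinearMap.mem_ker]
    rfl
  have hd : ∀ u, 0 ≤ u → HasDerivWithinAt (fun u => q (x u)) (0 : T) (Ici 0) u := by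
    intro u hu
    have := (q.hasFDerivAt (x := x u)).comp_hasDerivWithinAt u (hx u hu)
    have h2 : q (v (x u)) = 0 := (hq _).2 (hvS (x u))
    simpa [h2, Function.comp_def] using this
  have hconst : q (x t) = q (x 0) := const_of_forward_deriv_zero hd ht
  have h4 : q (x 0 - c) = 0 := (hq _).2 h0
  rw [map_sub] at h4
  rw [← hq, map_sub, hconst]
  exact h4

variable [FiniteDimensional ℝ E]

/-- **Existence inside an invariant compact set.** Suppose `K` is a compact set which is invariant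
in the sense that any solution of `y' = v y` on a finite time interval `[0,T]` starting in `K`
stays in `K`. Then through each point of `K` there is a global forward solution with values
in `K`. -/
theorem exists_forward_of_invariant {v : E → E} (hv : ContDiff ℝ ∞ v) {K : Set E}
    (hK : IsCompact K)
    (hInv : ∀ (T : ℝ) (y : ℝ → E), 0 ≤ T →
      (∀ t ∈ Icc 0 T, HasDerivWithinAt y (v (y t)) (Icc 0 T) t) → y 0 ∈ K →
      ∀ t ∈ Icc 0 T, y t ∈ K)
    {x₀ : E} (hx₀ : x₀ ∈ K) :
    ∃ x : ℝ → E, (∀ t, 0 ≤ t → HasDerivWithinAt x (v (x t)) (Ici 0) t) ∧ x 0 = x₀ ∧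
      ∀ t, 0 ≤ t → x t ∈ K := by
  obtain ⟨r, hr⟩ := hK.isBounded.subset_closedBall (0 : E)
  obtain ⟨r', hr'0, hr'⟩ : ∃ r' : ℝ, 0 ≤ r' ∧ K ⊆ closedBall (0 : E) r' :=
    ⟨max r 0, le_max_right _ _, hr.trans (closedBall_subset_closedBall (le_max_left _ _))⟩
  -- the cut-off
  let f : ContDiffBump (0 : E) := ⟨r' + 1, r' + 2, by linarith, by linarith⟩
  let X : E → E := fun z => f z • v z
  have hXeq : ∀ z ∈ ball (0 : E) (r' + 1), X z = v z := by
    intro z hz
    have : f z = 1 := f.one_of_mem_closedBall (ball_subset_closedBall hz)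
    simp [X, this]
  have hXsm : ContDiff ℝ ∞ X := (f.contDiff).smul hv
  have hXc : HasCompactSupport X := f.hasCompactSupport.smul_right
  obtain ⟨L, hL⟩ := Crest.Agent.Lib.SmoothFlow.exists_lip hXsm hXc
  obtain ⟨M, hM⟩ := Crest.Agent.Lib.SmoothFlow.exists_bdd hXsm hXc
  obtain ⟨γ, hγ0, hγ⟩ := Crest.Agent.Lib.SmoothFlow.exists_global_solution hL hM x₀
  have hγc : Continuous γ := continuous_iff_continuousAt.2 fun t => (hγ t).continuousAt
  have hKsub : K ⊆ ball (0 : E) (r' + 1) := fun z hz =>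
    closedBall_subset_ball (by linarith) (hr' hz)
  -- invariance
  have key : ∀ T : ℝ, 0 ≤ T → γ T ∈ K := by
    intro T hT
    let s : Set ℝ := {u | (∀ w ∈ Ico 0 u, γ w ∈ K) ∧ γ u ∈ K}
    have hsc : IsClosed s := by
      have h1 : IsClosed {u : ℝ | ∀ w ∈ Ico 0 u, γ w ∈ K} := by
        have : {u : ℝ | ∀ w ∈ Ico 0 u, γ w ∈ K} =
            ⋂ w ∈ {w : ℝ | 0 ≤ w ∧ γ w ∉ K}, Iic w := by
          ext u
          simp only [mem_ofPred_eq, mem_iInter, mem_Iic, mem_Ico]
          constructor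
          · intro h w hw
            by_contra hlt
            exact hw.2 (h w ⟨hw.1, not_le.mp hlt⟩)
          · intro h w hw
            by_contra hn
            exact absurd hw.2 (not_lt.mpr (h w ⟨hw.1, hn⟩))
        rw [this]
        exact isClosed_biInter fun _ _ => isClosed_Iic
      exact h1.inter (hK.isClosed.preimage hγc)
    have h0s : (0 : ℝ) ∈ s := ⟨fun w hw => absurd hw.2 (not_lt.mpr hw.1), by rw [hγ0]; exact hx₀⟩
    have hgt : ∀ x ∈ s ∩ Ico 0 T, ∀ y ∈ Ioi x, (s ∩ Ioc x y).Nonempty := by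
      rintro x ⟨hxs, hx0, hxT⟩ y hy
      have hball : ∀ᶠ u in 𝓝 x, γ u ∈ ball (0 : E) (r' + 1) :=
        hγc.continuousAt.eventually (isOpen_ball.mem_nhds (hKsub hxs.2))
      obtain ⟨ε, hε, hεb⟩ := Metric.eventually_nhds_iff.1 hball
      let x' := min (x + ε / 2) (min y T)
      have hx'1 : x < x' := by
        simp only [x', lt_min_iff]
        exact ⟨by linarith, hy, hxT⟩
      have hx'2 : x' ≤ y := (min_le_right _ _).trans (min_le_left _ _)
      have hx'3 : x' ≤ x + ε / 2 := min_le_left _ _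
      have hin : ∀ u ∈ Icc 0 x', γ u ∈ ball (0 : E) (r' + 1) := by
        intro u hu
        rcases lt_or_ge u x with h | h
        · exact hKsub (hxs.1 u ⟨hu.1, h⟩)
        · refine hεb ?_
          rw [Real.dist_eq, abs_of_nonneg (by linarith)]
          linarith [hu.2]
      have hder : ∀ u ∈ Icc 0 x', HasDerivWithinAt γ (v (γ u)) (Icc 0 x') u := by
        intro u hu
        rw [← hXeq _ (hin u hu)]
        exact (hγ u).hasDerivWithinAt
      have hinv := hInv x' γ (by linarith) hder (by rw [hγ0]; exact hx₀)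
      exact ⟨x', ⟨fun w hw => hinv w ⟨hw.1, hw.2.le⟩, hinv x' ⟨by linarith, le_rfl⟩⟩, hx'1, hx'2⟩
    have := (hsc.inter isClosed_Icc).Icc_subset_of_forall_exists_gt h0s hgt
    exact (this ⟨hT, le_rfl⟩).2
  refine ⟨γ, fun t ht => ?_, hγ0, key⟩
  have hk := key t ht
  have : X (γ t) = v (γ t) := hXeq _ (hKsub hk)
  rw [← this]
  exact (hγ t).hasDerivWithinAt

end Generic

section Assembly

variable {d : ℕ}

/-- Finite-time forward invariance of a set `K` for the field `v`. -/
def FiniteInv (v : (Fin d → ℝ) → (Fin d → ℝ)) (K : Set (Fin d → ℝ)) : Prop :=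
  ∀ (T : ℝ) (y : ℝ → (Fin d → ℝ)), 0 ≤ T →
    (∀ t ∈ Icc 0 T, HasDerivWithinAt y (v (y t)) (Icc 0 T) t) → y 0 ∈ K →
    ∀ t ∈ Icc 0 T, y t ∈ K

theorem FiniteInv.forward {v : (Fin d → ℝ) → (Fin d → ℝ)} {K : Set (Fin d → ℝ)}
    (hK : FiniteInv v K) {x : ℝ → (Fin d → ℝ)} (hx : IsForwardSolution v x) (h0 : x 0 ∈ K)
    {t : ℝ} (ht : 0 ≤ t) : x t ∈ K :=
  hK t x ht (fun u hu => (hx u hu.1).mono Icc_subset_Ici_self) h0 t ⟨ht, le_rfl⟩

/-- Time shifts of forward solutions are forward solutions. -/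
theorem IsForwardSolution.shift {v : (Fin d → ℝ) → (Fin d → ℝ)} {x : ℝ → (Fin d → ℝ)}
    (hx : IsForwardSolution v x) {T : ℝ} (hT : 0 ≤ T) :
    IsForwardSolution v (fun s => x (T + s)) := by
  intro s hs
  have h1 := hx (T + s) (by linarith)
  have h2 : HasDerivWithinAt (fun s : ℝ => T + s) 1 (Ici 0) s :=
    ((hasDerivAt_id s).const_add T).hasDerivWithinAt
  have h3 : MapsTo (fun s : ℝ => T + s) (Ici 0) (Ici 0) := fun u hu => by
    simp only [mem_Ici] at hu ⊢
    linarith
  have := h1.scomp s h2 h3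
  simpa [Function.comp_def] using this

theorem forward_unique (R : Network d) (k : (Fin d → ℕ) × (Fin d → ℕ) → ℝ)
    {x y : ℝ → (Fin d → ℝ)} (hx : IsForwardSolution (field R k) x)
    (hy : IsForwardSolution (field R k) y) (h0 : x 0 = y 0) {t : ℝ} (ht : 0 ≤ t) : x t = y t :=
  forward_unique_of_contDiff ((field_contDiff R k).of_le (by simp)) hx hy h0 ht

theorem forward_mem_class (R : Network d) (k : (Fin d → ℕ) × (Fin d → ℕ) → ℝ)
    {x : ℝ → (Fin d → ℝ)} (hx : IsForwardSolution (field R k) x) {c : Fin d → ℝ}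
    (h0 : x 0 - c ∈ stoichSubspace R) {t : ℝ} (ht : 0 ≤ t) : x t - c ∈ stoichSubspace R :=
  forward_sub_mem _ (field_mem R k) hx h0 ht

/-- **Final assembly of S0122 from the invariant family.** -/
theorem assembly (R : Network d) (k : (Fin d → ℕ) × (Fin d → ℕ) → ℝ) (c : Fin d → ℝ)
    (K : Set (Fin d → ℝ)) (hKP : K ⊆ positiveClass R c) (hKne : K.Nonempty) (hKc : IsCompact K)
    (hKconv : Convex ℝ K) (hKinv : FiniteInv (field R k) K)
    (hfam : ∀ x₀ ∈ positiveClass R c, ∃ C : Set (Fin d → ℝ), IsCompact C ∧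
      C ⊆ positiveClass R c ∧ x₀ ∈ C ∧ FiniteInv (field R k) C ∧
      ∀ x : ℝ → (Fin d → ℝ), IsForwardSolution (field R k) x → x 0 ∈ C →
        ∃ T : ℝ, 0 ≤ T ∧ x T ∈ K) :
    ∃ K : Set (Fin d → ℝ), K ⊆ positiveClass R c ∧ K.Nonempty ∧ IsCompact K ∧ Convex ℝ K ∧
      (∀ x : ℝ → (Fin d → ℝ), IsForwardSolution (field R k) x → x 0 ∈ K →
        ∀ t : ℝ, 0 ≤ t → x t ∈ K) ∧
      (∀ x₀ ∈ positiveClass R c,
        (∃ x : ℝ → (Fin d → ℝ), IsForwardSolution (field R k) x ∧ x 0 = x₀) ∧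
        (∀ x x' : ℝ → (Fin d → ℝ), IsForwardSolution (field R k) x →
          IsForwardSolution (field R k) x' → x 0 = x₀ → x' 0 = x₀ →
          ∀ t : ℝ, 0 ≤ t → x t = x' t) ∧
        (∀ x : ℝ → (Fin d → ℝ), IsForwardSolution (field R k) x → x 0 = x₀ →
          (∀ t : ℝ, 0 ≤ t → ∀ i, 0 < x t i) ∧
          ∃ T : ℝ, 0 ≤ T ∧ ∀ t : ℝ, T ≤ t → x t ∈ K)) := by
  refine ⟨K, hKP, hKne, hKc, hKconv, fun x hx h0 t ht => hKinv.forward hx h0 ht, ?_⟩
  intro x₀ hx₀
  obtain ⟨C, hCc, hCP, hx₀C, hCinv, hentry⟩ := hfam x₀ hx₀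
  refine ⟨?_, ?_, ?_⟩
  · obtain ⟨x, hx, hx0, _⟩ := exists_forward_of_invariant (field_contDiff R k) hCc hCinv hx₀C
    exact ⟨x, hx, hx0⟩
  · intro x x' hx hx' h0 h0' t ht
    exact forward_unique R k hx hx' (h0.trans h0'.symm) ht
  · intro x hx h0
    refine ⟨fun t ht i => (hCP (hCinv.forward hx (h0 ▸ hx₀C) ht)).1 i, ?_⟩
    obtain ⟨T, hT, hxT⟩ := hentry x hx (h0 ▸ hx₀C)
    refine ⟨T, hT, fun t ht => ?_⟩
    have hs := IsForwardSolution.shift hx hT
    have := hKinv.forward hs (by simpa using hxT) (t := t - T) (by linarith)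
    simpa using this

end Assembly

end Crest.Agent.MassActionODE
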