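import Mathlib
import Crest.Prelude.Def_MassAction

/-!
# The cut lemma for weakly reversible mass-action fields (S0122)

If `n` is sign-compatible with `log x` on the differences of source complexes
(`⟨n, y - y'⟩ > 0 → ⟨log x, y - y'⟩ ≥ Q`) with `Q` large compared with the rate constants,
then `⟨n, field x⟩ < 0`, unless `n` is orthogonal to all reaction vectors.
-/

set_option autoImplicit false

namespace Crest.Agent.MassActionODE

open Crest.AnalysisR.MassAction Set MeasureTheory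

variable {d : ℕ}

/-- `⟨n, y⟩` for a complex `y`. -/
noncomputable def lev (n : Fin d → ℝ) (y : Fin d → ℕ) : ℝ := ∑ i, n i * (y i : ℝ)

/-- The clamp of `t` to `[lo, hi]`. -/
noncomputable def clampR (lo hi t : ℝ) : ℝ := max lo (min t hi)

theorem clampR_of_lo {lo hi : ℝ} (h : lo ≤ hi) : clampR lo hi lo = lo := by
  simp [clampR, h]

theorem clampR_of_hi {lo hi : ℝ} (h : lo ≤ hi) : clampR lo hi hi = hi := by
  simp [clampR, h]

theorem clampR_ge (lo hi t : ℝ) : lo ≤ clampR lo hi t := le_max_left _ _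

theorem clampR_diff_le (lo hi s t : ℝ) : clampR lo hi s - clampR lo hi t ≤ max (s - t) 0 := by
  unfold clampR
  simp only [max_def, min_def]
  split_ifs <;> linarith

theorem lt_of_lt_clampR {lo hi t : ℝ} (h : lo < clampR lo hi t) : lo < t := by
  unfold clampR at h
  rcases lt_max_iff.mp h with h | h
  · exact absurd h (lt_irrefl _)
  · exact (lt_min_iff.mp h).1

/-- One-dimensional crossing along a walk. -/
theorem exists_crossing (R : Network d) (φ : (Fin d → ℕ) → ℝ) {u w : Fin d → ℕ}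
    (h : Relation.ReflTransGen (fun a b => (a, b) ∈ R) u w) {t : ℝ} (h1 : φ w ≤ t) (h2 : t < φ u) :
    ∃ e ∈ R, φ e.2 ≤ t ∧ t < φ e.1 := by
  induction h with
  | refl => exact absurd h1 (not_le.mpr h2)
  | @tail b c _ hbc ih =>
    by_cases hb : φ b ≤ t
    · exact ih hb
    · exact ⟨(b, c), hbc, h1, not_le.mp hb⟩

/-- The length of an interval is at most the sum of the lengths of intervals covering it. -/
theorem len_le_sum_of_cover {ι : Type*} (s : Finset ι) (b t : ι → ℝ) {lo hi : ℝ}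
    (hcov : ∀ z ∈ Ico lo hi, ∃ e ∈ s, b e ≤ z ∧ z < t e) :
    hi - lo ≤ ∑ e ∈ s, max (t e - b e) 0 := by
  have hsub : Ico lo hi ⊆ ⋃ e ∈ s, Ico (b e) (t e) := by
    intro z hz
    obtain ⟨e, he, h1, h2⟩ := hcov z hz
    exact mem_biUnion he ⟨h1, h2⟩
  have hm := (measure_mono (μ := volume) hsub).trans (measure_biUnion_finset_le s _)
  simp only [Real.volume_Ico] at hm
  have h2 : ∑ e ∈ s, ENNReal.ofReal (t e - b e) = ENNReal.ofReal (∑ e ∈ s, max (t e - b e) 0) := by
    rw [ENNReal.ofReal_sum_of_nonneg (fun _ _ => le_max_right _ _)]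
    refine Finset.sum_congr rfl fun e _ => ?_
    rcases le_total (t e - b e) 0 with h | h
    · rw [max_eq_right h, ENNReal.ofReal_of_nonpos h, ENNReal.ofReal_zero]
    · rw [max_eq_left h]
  rw [h2] at hm
  exact (ENNReal.ofReal_le_ofReal_iff (Finset.sum_nonneg fun _ _ => le_max_right _ _)).1 hm

/-- `⟨n, field x⟩` as a weighted sum over reactions. -/
theorem dot_field (R : Network d) (k : (Fin d → ℕ) × (Fin d → ℕ) → ℝ) (n x : Fin d → ℝ) :
    ∑ i, n i * field R k x i =
      ∑ r ∈ R, (k r * ∏ i, x i ^ (r.1 i)) * (lev n r.2 - lev n r.1) := by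
  unfold field
  simp only [Finset.sum_apply, Pi.smul_apply, smul_eq_mul, Finset.mul_sum]
  rw [Finset.sum_comm]
  refine Finset.sum_congr rfl fun r _ => ?_
  have : lev n r.2 - lev n r.1 = ∑ i, n i * reactionVector r i := by
    unfold lev reactionVector
    rw [← Finset.sum_sub_distrib]
    exact Finset.sum_congr rfl fun i _ => by ring
  rw [this, Finset.mul_sum]
  exact Finset.sum_congr rfl fun i _ => by ring

/-- The domination of monomials. -/
theorem mono_dom {x : Fin d → ℝ} (hx : ∀ i, 0 < x i) (y y' : Fin d → ℕ) {Q : ℝ}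
    (h : Q ≤ ∑ i, Real.log (x i) * ((y i : ℝ) - (y' i : ℝ))) :
    Real.exp Q * ∏ i, x i ^ (y' i) ≤ ∏ i, x i ^ (y i) := by
  have hexp : ∀ z : Fin d → ℕ, ∏ i, x i ^ (z i) = Real.exp (∑ i, Real.log (x i) * (z i : ℝ)) := by
    intro z
    rw [Real.exp_sum]
    refine Finset.prod_congr rfl fun i _ => ?_
    rw [mul_comm, Real.exp_nat_mul, Real.exp_log (hx i)]
  rw [hexp, hexp, ← Real.exp_add]
  apply Real.exp_le_exp.mpr
  have : ∑ i, Real.log (x i) * (y i : ℝ) =
      ∑ i, Real.log (x i) * ((y i : ℝ) - (y' i : ℝ)) + ∑ i, Real.log (x i) * (y' i : ℝ) := by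
    rw [← Finset.sum_add_distrib]
    exact Finset.sum_congr rfl fun i _ => by ring
  rw [this]
  linarith

/-- **The cut lemma.** -/
theorem cut_lemma (R : Network d) (hR : IsWeaklyReversible R)
    (k : (Fin d → ℕ) × (Fin d → ℕ) → ℝ) (hk : ∀ r ∈ R, 0 < k r)
    (n x : Fin d → ℝ) (hx : ∀ i, 0 < x i) (Q : ℝ)
    (hQ : ∀ r ∈ R, ∀ e ∈ R, (R.card : ℝ) * k r < k e * Real.exp Q)
    (hAlign : ∀ r ∈ R, ∀ e ∈ R, lev n r.1 < lev n e.1 →
      Q ≤ ∑ i, Real.log (x i) * ((e.1 i : ℝ) - (r.1 i : ℝ))) :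
    (∀ r ∈ R, lev n r.2 = lev n r.1) ∨ ∑ i, n i * field R k x i < 0 := by
  classical
  set κ : (Fin d → ℕ) × (Fin d → ℕ) → ℝ := fun r => k r * ∏ i, x i ^ (r.1 i) with hκdef
  have hprod : ∀ y : Fin d → ℕ, 0 < ∏ i, x i ^ (y i) := fun y =>
    Finset.prod_pos fun i _ => pow_pos (hx i) _
  have hκ : ∀ r ∈ R, 0 < κ r := fun r hr => mul_pos (hk r hr) (hprod _)
  set Δ : (Fin d → ℕ) × (Fin d → ℕ) → ℝ := fun r => lev n r.2 - lev n r.1 with hΔdef
  set D : (Fin d → ℕ) × (Fin d → ℕ) → ℝ := fun r => max (lev n r.1 - lev n r.2) 0 with hDdef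
  set c : (Fin d → ℕ) × (Fin d → ℕ) → (Fin d → ℕ) × (Fin d → ℕ) → ℝ := fun r e =>
    max (clampR (lev n r.1) (lev n r.2) (lev n e.1) - clampR (lev n r.1) (lev n r.2) (lev n e.2)) 0
    with hcdef
  have hc0 : ∀ r e, 0 ≤ c r e := fun r e => le_max_right _ _
  have hcD : ∀ r e, c r e ≤ D e := fun r e =>
    max_le (clampR_diff_le _ _ _ _) (le_max_right _ _)
  have hD0 : ∀ e, 0 ≤ D e := fun e => le_max_right _ _
  -- Fact 1: the cover
  have hcover : ∀ r ∈ R, lev n r.1 < lev n r.2 → Δ r ≤ ∑ e ∈ R, c r e := by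
    intro r hr hup
    have hle := hup.le
    set φ : (Fin d → ℕ) → ℝ := fun y => clampR (lev n r.1) (lev n r.2) (lev n y) with hφ
    refine len_le_sum_of_cover R (fun e => φ e.2) (fun e => φ e.1) ?_
    intro z hz
    refine exists_crossing R φ (hR r hr) ?_ ?_
    · simp only [hφ, clampR_of_lo hle]
      exact hz.1
    · simp only [hφ, clampR_of_hi hle]
      exact hz.2
  -- Fact 3/4: domination
  have hdom : ∀ r ∈ R, ∀ e ∈ R, 0 < c r e → (R.card : ℝ) * κ r < κ e := by
    intro r hr e he hc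
    have h1 : clampR (lev n r.1) (lev n r.2) (lev n e.2) <
        clampR (lev n r.1) (lev n r.2) (lev n e.1) := by
      have := (lt_max_iff.mp hc)
      rcases this with h | h
      · linarith
      · exact absurd h (lt_irrefl _)
    have h2 : lev n r.1 < lev n e.1 := lt_of_lt_clampR (lt_of_le_of_lt (clampR_ge _ _ _) h1)
    have h3 := mono_dom hx e.1 r.1 (hAlign r hr e he h2)
    have h4 := hQ r hr e he
    have hp := hprod r.1
    simp only [hκdef]
    calc (R.card : ℝ) * (k r * ∏ i, x i ^ (r.1 i))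
        = ((R.card : ℝ) * k r) * ∏ i, x i ^ (r.1 i) := by ring
      _ < (k e * Real.exp Q) * ∏ i, x i ^ (r.1 i) := mul_lt_mul_of_pos_right h4 hp
      _ = k e * (Real.exp Q * ∏ i, x i ^ (r.1 i)) := by ring
      _ ≤ k e * ∏ i, x i ^ (e.1 i) := mul_le_mul_of_nonneg_left h3 (hk e he).le
  by_cases hall : ∀ r ∈ R, lev n r.2 = lev n r.1
  · exact Or.inl hall
  right
  rw [dot_field]
  -- the sum splits into up and down parts
  set U := R.filter (fun r => lev n r.1 < lev n r.2) with hU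
  have hsplit : ∑ r ∈ R, κ r * Δ r = ∑ r ∈ U, κ r * Δ r - ∑ r ∈ R, κ r * D r := by
    have hR2 : ∑ r ∈ R, κ r * Δ r = ∑ r ∈ R, ((if lev n r.1 < lev n r.2 then κ r * Δ r else 0) -
        κ r * D r) := by
      refine Finset.sum_congr rfl fun r _ => ?_
      simp only [hΔdef, hDdef]
      by_cases h : lev n r.1 < lev n r.2
      · rw [if_pos h, max_eq_right (by linarith)]
        ring
      · rw [if_neg h, max_eq_left (by linarith)]
        ring
    rw [hR2, Finset.sum_sub_distrib, hU, Finset.sum_filter]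
  show ∑ r ∈ R, κ r * Δ r < 0
  rw [hsplit]
  by_cases hUne : U.Nonempty
  · -- there is an up edge
    obtain ⟨r₀, hr₀⟩ := hUne
    have hr₀R : r₀ ∈ R := (Finset.mem_filter.mp hr₀).1
    have hr₀up : lev n r₀.1 < lev n r₀.2 := (Finset.mem_filter.mp hr₀).2
    have hcard : 0 < (R.card : ℝ) := by
      exact_mod_cast Finset.card_pos.mpr ⟨r₀, hr₀R⟩
    have hUsub : ∀ r ∈ U, r ∈ R := fun r hr => (Finset.mem_filter.mp hr).1
    -- step 1
    have h1 : ∑ r ∈ U, κ r * Δ r ≤ ∑ r ∈ U, ∑ e ∈ R, κ r * c r e := by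
      refine Finset.sum_le_sum fun r hr => ?_
      rw [← Finset.mul_sum]
      exact mul_le_mul_of_nonneg_left (hcover r (hUsub r hr) (Finset.mem_filter.mp hr).2)
        (hκ r (hUsub r hr)).le
    -- each term
    have hterm : ∀ r ∈ U, ∀ e ∈ R, κ r * c r e ≤ κ e * D e / R.card := by
      intro r hr e he
      rcases (hc0 r e).eq_or_lt with h | h
      · rw [← h, mul_zero]
        exact div_nonneg (mul_nonneg (hκ e he).le (hD0 e)) hcard.le
      · rw [le_div_iff₀ hcard]
        have h5 := hdom r (hUsub r hr) e he h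
        have h6 := hcD r e
        have h7 := hκ r (hUsub r hr)
        have h8 := hκ e he
        calc κ r * c r e * (R.card : ℝ) = ((R.card : ℝ) * κ r) * c r e := by ring
          _ ≤ κ e * c r e := mul_le_mul_of_nonneg_right h5.le h.le
          _ ≤ κ e * D e := mul_le_mul_of_nonneg_left h6 h8.le
    -- the strict term
    obtain ⟨e₀, he₀, hce₀⟩ : ∃ e ∈ R, 0 < c r₀ e := by
      by_contra hno
      push Not at hno
      have h9 := hcover r₀ hr₀R hr₀up
      have h10 : ∑ e ∈ R, c r₀ e ≤ 0 := Finset.sum_nonpos hno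
      have h11 : 0 < Δ r₀ := by simp only [hΔdef]; linarith
      linarith
    have hstrict : κ r₀ * c r₀ e₀ < κ e₀ * D e₀ / R.card := by
      rw [lt_div_iff₀ hcard]
      have h5 := hdom r₀ hr₀R e₀ he₀ hce₀
      have h6 := hcD r₀ e₀
      have h8 := hκ e₀ he₀
      calc κ r₀ * c r₀ e₀ * (R.card : ℝ) = ((R.card : ℝ) * κ r₀) * c r₀ e₀ := by ring
        _ < κ e₀ * c r₀ e₀ := mul_lt_mul_of_pos_right h5 hce₀
        _ ≤ κ e₀ * D e₀ := mul_le_mul_of_nonneg_left h6 h8.le
    have h2 : ∑ r ∈ U, ∑ e ∈ R, κ r * c r e < ∑ r ∈ U, ∑ e ∈ R, κ e * D e / R.card := by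
      refine Finset.sum_lt_sum (fun r hr => Finset.sum_le_sum fun e he => hterm r hr e he)
        ⟨r₀, hr₀, Finset.sum_lt_sum (fun e he => hterm r₀ hr₀ e he) ⟨e₀, he₀, hstrict⟩⟩
    have h3 : ∑ r ∈ U, ∑ e ∈ R, κ e * D e / R.card ≤ ∑ e ∈ R, κ e * D e := by
      rw [Finset.sum_const, nsmul_eq_mul]
      rw [← Finset.sum_div, mul_div_assoc', div_le_iff₀ hcard, mul_comm]
      have hnn : 0 ≤ ∑ e ∈ R, κ e * D e :=
        Finset.sum_nonneg fun e he => mul_nonneg (hκ e he).le (hD0 e)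
      have hcle : (U.card : ℝ) ≤ R.card := by
        exact_mod_cast Finset.card_filter_le _ _
      exact mul_le_mul_of_nonneg_left hcle hnn
    linarith
  · -- no up edge: all level differences are nonpositive and one is negative
    have hUe : U = ∅ := Finset.not_nonempty_iff_eq_empty.mp hUne
    rw [hUe, Finset.sum_empty, zero_sub, neg_lt_zero]
    push Not at hall
    obtain ⟨r, hr, hne⟩ := hall
    have hnup : ¬ lev n r.1 < lev n r.2 := by
      intro h
      have : r ∈ U := Finset.mem_filter.mpr ⟨hr, h⟩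
      rw [hUe] at this
      simp at this
    have hlt : lev n r.2 < lev n r.1 := lt_of_le_of_ne (not_lt.mp hnup) hne
    refine Finset.sum_pos' (fun e he => mul_nonneg (hκ e he).le (hD0 e)) ⟨r, hr, ?_⟩
    refine mul_pos (hκ r hr) ?_
    simp only [hDdef]
    exact lt_max_of_lt_left (by linarith)

/-- A threshold `Q₀` for the rate constants. -/
theorem exists_rate_threshold (R : Network d) (k : (Fin d → ℕ) × (Fin d → ℕ) → ℝ)
    (hk : ∀ r ∈ R, 0 < k r) :
    ∃ Q₀ : ℝ, ∀ Q, Q₀ ≤ Q → ∀ r ∈ R, ∀ e ∈ R, (R.card : ℝ) * k r < k e * Real.exp Q := by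
  classical
  set M : ℝ := ∑ r ∈ R, ∑ e ∈ R, (R.card : ℝ) * k r / k e with hM
  have hnn : ∀ r ∈ R, ∀ e ∈ R, 0 ≤ (R.card : ℝ) * k r / k e := fun r hr e he =>
    div_nonneg (mul_nonneg (Nat.cast_nonneg _) (hk r hr).le) (hk e he).le
  have hMnn : 0 ≤ M := Finset.sum_nonneg fun r hr => Finset.sum_nonneg fun e he => hnn r hr e he
  refine ⟨Real.log (M + 1), fun Q hQ r hr e he => ?_⟩
  have h1 : (R.card : ℝ) * k r / k e ≤ M := by
    calc (R.card : ℝ) * k r / k e ≤ ∑ e ∈ R, (R.card : ℝ) * k r / k e :=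
          Finset.single_le_sum (f := fun e => (R.card : ℝ) * k r / k e) (fun e he => hnn r hr e he) he
      _ ≤ M := Finset.single_le_sum (f := fun r => ∑ e ∈ R, (R.card : ℝ) * k r / k e)
          (fun r hr => Finset.sum_nonneg fun e he => hnn r hr e he) hr
  have h2 : M + 1 ≤ Real.exp Q := by
    calc M + 1 = Real.exp (Real.log (M + 1)) := (Real.exp_log (by linarith)).symm
      _ ≤ Real.exp Q := Real.exp_le_exp.mpr hQ
  have h3 := hk e he
  have h4 : (R.card : ℝ) * k r / k e < Real.exp Q := by linarith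
  rw [div_lt_iff₀ h3] at h4
  linarith

/-- A bound on all the stoichiometric coefficients. -/
theorem exists_coeff_bound (R : Network d) :
    ∃ B : ℕ, ∀ r ∈ R, ∀ i, r.1 i ≤ B ∧ r.2 i ≤ B := by
  classical
  refine ⟨∑ r ∈ R, ∑ i, (r.1 i + r.2 i), fun r hr i => ?_⟩
  have h1 : r.1 i + r.2 i ≤ ∑ i, (r.1 i + r.2 i) :=
    Finset.single_le_sum (f := fun i => r.1 i + r.2 i) (fun _ _ => Nat.zero_le _) (Finset.mem_univ i)
  have h2 : ∑ i, (r.1 i + r.2 i) ≤ ∑ r ∈ R, ∑ i, (r.1 i + r.2 i) :=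
    Finset.single_le_sum (f := fun r : (Fin d → ℕ) × (Fin d → ℕ) => ∑ i, (r.1 i + r.2 i))
      (fun _ _ => Nat.zero_le _) hr
  omega

/-- **The cut lemma, integer form.** If `n` and `log x` are sign compatible on integer vectors
of sup-norm at most `B`, then either `n` is orthogonal to all reaction vectors, or
`⟨n, field x⟩ < 0`. -/
theorem cut_lemma_int (R : Network d) (hR : IsWeaklyReversible R)
    (k : (Fin d → ℕ) × (Fin d → ℕ) → ℝ) (hk : ∀ r ∈ R, 0 < k r)
    (n x : Fin d → ℝ) (hx : ∀ i, 0 < x i) (Q : ℝ)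
    (hQ : ∀ r ∈ R, ∀ e ∈ R, (R.card : ℝ) * k r < k e * Real.exp Q)
    (B : ℕ) (hB : ∀ r ∈ R, ∀ i, r.1 i ≤ B ∧ r.2 i ≤ B)
    (hAlign : ∀ s : Fin d → ℤ, (∀ i, |s i| ≤ (B : ℤ)) → 0 < ∑ i, n i * (s i : ℝ) →
      Q ≤ ∑ i, Real.log (x i) * (s i : ℝ)) :
    (∀ r ∈ R, ∑ i, n i * reactionVector r i = 0) ∨ ∑ i, n i * field R k x i < 0 := by
  have hcut := cut_lemma R hR k hk n x hx Q hQ ?_
  · rcases hcut with h | h
    · left
      intro r hr
      have h1 := h r hr
      have : ∑ i, n i * reactionVector r i = lev n r.2 - lev n r.1 := by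
        unfold lev reactionVector
        rw [← Finset.sum_sub_distrib]
        exact Finset.sum_congr rfl fun i _ => by ring
      rw [this, h1, sub_self]
    · exact Or.inr h
  · intro r hr e he hlt
    have hs := hAlign (fun i => (e.1 i : ℤ) - (r.1 i : ℤ)) ?_ ?_
    · simpa using hs
    · intro i
      have h1 := (hB r hr i).1
      have h2 := (hB e he i).1
      rw [abs_le]
      constructor <;> omega
    · have : ∑ i, n i * (((e.1 i : ℤ) - (r.1 i : ℤ) : ℤ) : ℝ) = lev n e.1 - lev n r.1 := by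
        unfold lev
        rw [← Finset.sum_sub_distrib]
        refine Finset.sum_congr rfl fun i _ => ?_
        push_cast
        ring
      rw [this]
      linarith

end Crest.Agent.MassActionODE
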